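import Vale.Agent.P192.H593.CutsG
import Vale.Agent.P192.R2.H577.Sch
import Vale.Agent.P192.H663.Defs
import Mathlib.Algebra.Group.Pointwise.Finset.Basic

set_option linter.all false

/-! Machines over a group: definitions. -/

namespace Vale.Agent.P192.R2.H360.R

open Vale.Agent.P192 Vale.Agent.P192.H437 Vale.Agent.P192.H593 Vale.Agent.P192.R2.H577
open scoped Pointwise

universe u v

/-- full boundary of a set: the ends of the edges which leave or enter the set -/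
def fb {G : Type v} {X : Type u} [Group G] [MulAction G X] (S : Set G) (D : Set X) : Set X :=
  {z | ∃ s, (s ∈ S ∨ s⁻¹ ∈ S) ∧ ((z ∈ D ∧ s • z ∉ D) ∨ (z ∉ D ∧ s • z ∈ D))}

/-- heads and tapes over the group `H`: the head moves in `T`, the tape is changed in `T` around the
head only -/
structure Loc {G : Type v} [Group G] (S : Set G) {H A Q : Type} [Group H] [DecidableEq H]
    (T : Finset H) (X : Type u) [MulAction G X] (hd : X → H) (tp : X → H → A) (st : X → Q) :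
    Prop where
  one : 1 ∈ T
  inv : ∀ τ ∈ T, τ⁻¹ ∈ T
  move : ∀ z s, (s ∈ S ∨ s⁻¹ ∈ S) → (hd z)⁻¹ * hd (s • z) ∈ T
  write : ∀ z s p, (s ∈ S ∨ s⁻¹ ∈ S) → tp (s • z) p ≠ tp z p → (hd z)⁻¹ * p ∈ T
  inj : ∀ z z', hd z = hd z' → st z = st z' → tp z = tp z' → z = z'

/-- (R1) -/
def R1 : Prop := ∀ (G : Type v) [Group G] [Group.IsFinitelyPresented G], IsMulTorsion G →
  ∀ S : Set G, S.Finite → Subgroup.closure S = ⊤ → ∃ R : ℕ,
    ∀ (X : Type u) [MulAction G X] [MulAction.IsPretransitive G X] (F : Set X) (x y : X),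
      x ∈ F → y ∉ F → ∃ D : Set X, x ∈ D ∧ y ∉ D ∧ fb S D ⊆ fb S F ∧
        ∀ a ∈ fb S D, ∀ b ∈ fb S D, linked S R (fb S D) a b

/-- (R2) -/
def R2 : Prop := ∀ (G : Type v) [Group G] [Group.IsFinitelyPresented G], IsMulTorsion G →
  ∀ S : Set G, Subgroup.closure S = ⊤ → ∀ K : ℕ, ∃ M : ℕ,
    ∀ (X : Type u) [MulAction G X] [MulAction.IsPretransitive G X] (x y : X) (m : ℕ)
      (D : Fin m → Set X), (∀ i, (x ∈ D i ∧ y ∉ D i) ∨ (x ∉ D i ∧ y ∈ D i)) →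
      (∀ i, (fb S (D i)).encard ≤ K) → (∀ i j, i ≠ j → Disjoint (fb S (D i)) (fb S (D j))) →
      m ≤ M

/-- (R3) -/
def R3 : Prop := ∀ (G : Type v) [Group G] [Group.IsFinitelyPresented G], IsMulTorsion G →
  ∀ S : Set G, S.Finite → Subgroup.closure S = ⊤ →
  ∀ (H A Q : Type) [Group H] [DecidableEq H] [Finite A] [Finite Q] (T : Finset H), ∃ K : ℕ,
    ∀ (X : Type u) [MulAction G X] [MulAction.IsPretransitive G X] (hd : X → H) (tp : X → H → A)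
      (st : X → Q), Loc S T X hd tp st → ∀ (x y : X) (p : H), tp x p ≠ tp y p →
      ∃ D : Set X, x ∈ D ∧ y ∉ D ∧ (fb S D).encard ≤ K ∧ (∀ z ∈ fb S D, (hd z)⁻¹ * p ∈ T) ∧
        ∀ a ∈ fb S D, ∀ b ∈ fb S D, hop S K a b

/-- (R4) -/
def R4 : Prop := ∀ (G : Type v) [Group G] [Group.IsFinitelyPresented G], IsMulTorsion G →
  ∀ S : Set G, S.Finite → Subgroup.closure S = ⊤ →
  ∀ (H A Q : Type) [Group H] [DecidableEq H] [Finite A] [Finite Q] (T : Finset H), ∃ M : ℕ,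
    ∀ (X : Type u) [MulAction G X] [MulAction.IsPretransitive G X] (hd : X → H) (tp : X → H → A)
      (st : X → Q), Loc S T X hd tp st → ∀ (x y : X) (P : Finset H), (∀ p ∈ P, tp x p ≠ tp y p) →
      (∀ p ∈ P, ∀ p' ∈ P, p ≠ p' → p⁻¹ * p' ∉ T ^ 2) → P.card ≤ M

/-- (R5) -/
def R5 : Prop := ∀ (G : Type v) [Group G] [Group.IsFinitelyPresented G], IsMulTorsion G →
  ∀ S : Set G, S.Finite → Subgroup.closure S = ⊤ →
  ∀ (H A Q : Type) [Group H] [DecidableEq H] [Finite A] [Finite Q] (T : Finset H) (C : ℕ),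
  ∃ n0 : ℕ, ∀ (X : Type u) [MulAction G X] [MulAction.IsPretransitive G X] (hd : X → H)
      (tp : X → H → A) (st : X → Q), Loc S T X hd tp st → ∀ (x y : X) (n : ℕ) (Z : Finset H),
      (∀ z, hd z ∈ Z) → Z.card ≤ C * n → ¬ hop S n x y → n ≤ n0

/-- (R5a) -/
def R5a : Prop := ∀ (G : Type v) [Group G] [Group.IsFinitelyPresented G], IsMulTorsion G →
  ∀ S : Set G, Subgroup.closure S = ⊤ → ∀ K : ℕ, ∃ M : ℕ,
    ∀ (X : Type u) [MulAction G X] [MulAction.IsPretransitive G X] (x y : X),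
      ∃ a b : X, (sch S X).dist x y ≤ M * ((sch S X).dist a b + 1) ∧
        ∀ D : Set X, (fb S D).encard ≤ K → (∀ u ∈ fb S D, ∀ v ∈ fb S D, hop S K u v) →
          ((a ∈ D ∧ b ∉ D) ∨ (a ∉ D ∧ b ∈ D)) → ∃ v ∈ fb S D, hop S (2 * K) a v ∨ hop S (2 * K) b v

/-- (R5b) -/
def R5b : Prop := ∀ (G : Type v) [Group G] [Group.IsFinitelyPresented G], IsMulTorsion G →
  ∀ S : Set G, S.Finite → Subgroup.closure S = ⊤ →
  ∀ (H A Q : Type) [Group H] [DecidableEq H] [Finite A] [Finite Q] (T : Finset H) (K : ℕ),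
  ∃ C1 : ℕ, ∀ (X : Type u) [MulAction G X] [MulAction.IsPretransitive G X] (hd : X → H)
      (tp : X → H → A) (st : X → Q), Loc S T X hd tp st →
      (∀ (x y : X) (p : H), tp x p ≠ tp y p →
        ∃ D : Set X, x ∈ D ∧ y ∉ D ∧ (fb S D).encard ≤ K ∧ (∀ z ∈ fb S D, (hd z)⁻¹ * p ∈ T) ∧
          ∀ a ∈ fb S D, ∀ b ∈ fb S D, hop S K a b) →
      ∀ (Z : Finset H), (∀ z, hd z ∈ Z) → ∀ a b : X, a ≠ b →
      (∀ D : Set X, (fb S D).encard ≤ K → (∀ u ∈ fb S D, ∀ v ∈ fb S D, hop S K u v) →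
        ((a ∈ D ∧ b ∉ D) ∨ (a ∉ D ∧ b ∈ D)) →
          ∃ v ∈ fb S D, hop S (2 * K) a v ∨ hop S (2 * K) b v) →
      ∃ C : ℕ → Set X, (C 0).Nonempty ∧ C ((sch S X).dist a b - 1) ≠ Set.univ ∧
        (∀ i < (sch S X).dist a b - 1, ∀ z ∈ C i, z ∈ C (i + 1) ∧
          ∀ s ∈ S, s • z ∈ C (i + 1) ∧ s⁻¹ • z ∈ C (i + 1)) ∧
        ∑ i ∈ Finset.range ((sch S X).dist a b - 1), (bdry S (C i)).encard ≤
          ((C1 * Z.card : ℕ) : ℕ∞)

/-- (R5c) -/
def R5c : Prop := R3.{u, v} → R5a.{u, v} → R5b.{u, v} → R5.{u, v}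

end Vale.Agent.P192.R2.H360.R
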