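import Vale.Agent.P192.R2.H360.R.R8
import Vale.Agent.P192.R2.H873.R1
import Vale.Agent.P192.R2.H768.R2
import Vale.Agent.P192.R2.H431.R3
import Vale.Agent.P192.R2.H225.R4
import Vale.Agent.P192.R2.H225.R7
import Vale.Agent.P192.R2.H652.R5a
import Vale.Agent.P192.R2.H435.R6
import Vale.Agent.P192.R2.H102.R5b
import Vale.Agent.P192.R2.H909.R9
import Vale.Agent.P192.R2.H311.R10

set_option linter.all false

/-! Machines over a group: assembly. -/

namespace Vale.Agent.P192.R2.H360.R

universe u v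

/-- the theorem, up to (R6) -/
theorem rtm_of (r6 : R6) : Rtm :=
  Vale.Agent.P192.R2.H311.r10
    (Vale.Agent.P192.R2.H909.r9
      (Vale.Agent.P192.R2.H225.r5c
        (Vale.Agent.P192.R2.H431.r3 Vale.Agent.P192.R2.H873.r1)
        (Vale.Agent.P192.R2.H652.r5a Vale.Agent.P192.R2.H768.r2)
        Vale.Agent.P192.R2.H102.RR.r5b)
      (r8 (Vale.Agent.P192.R2.H225.r4 Vale.Agent.P192.R2.H768.r2
          (Vale.Agent.P192.R2.H431.r3 Vale.Agent.P192.R2.H873.r1))
        (Vale.Agent.P192.R2.H225.r7 r6)))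

/-- **Machines over a group.** -/
theorem rtm : Rtm := rtm_of Vale.Agent.P192.R2.H435.r6

end Vale.Agent.P192.R2.H360.R
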