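import Vale.Agent.P192.R2.H360.R.Defs

set_option linter.all false

/-! Machines over a group: equivariant part. -/

namespace Vale.Agent.P192.R2.H360.R

open Vale.Agent.P192 Vale.Agent.P192.H437 Vale.Agent.P192.H593 Vale.Agent.P192.R2.H577
open scoped Pointwise

/-- configurations: tape, head, state -/
abbrev Cf (H A Q : Type) : Type := (H → A) × H × Q

/-- a machine with window `T`: the head moves in `T`, the tape is changed in the window only, and the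
move, the new state and the new window depend on the state and on the window only -/
def Mach {H A Q : Type} [Group H] (T : Finset H) (g : Cf H A Q → Cf H A Q) : Prop :=
  (∀ z, z.2.1⁻¹ * (g z).2.1 ∈ T) ∧ (∀ z p, (g z).1 p ≠ z.1 p → z.2.1⁻¹ * p ∈ T) ∧
  ∀ z z', z.2.2 = z'.2.2 → (∀ τ ∈ T, z.1 (z.2.1 * τ) = z'.1 (z'.2.1 * τ)) →
    z.2.1⁻¹ * (g z).2.1 = z'.2.1⁻¹ * (g z').2.1 ∧ (g z).2.2 = (g z').2.2 ∧
      ∀ τ ∈ T, (g z).1 (z.2.1 * τ) = (g z').1 (z'.2.1 * τ)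

/-- `G` acts on the configurations by machines with window `T` for the generators `S` -/
structure MA {H A Q : Type} [Group H] [DecidableEq H] (G : Type) [Group G] (S : Set G)
    (T : Finset H) [MulAction G (Cf H A Q)] : Prop where
  one : 1 ∈ T
  inv : ∀ τ ∈ T, τ⁻¹ ∈ T
  fin : S.Finite
  gen : Subgroup.closure S = ⊤
  mach : ∀ s, (s ∈ S ∨ s⁻¹ ∈ S) → Mach T (fun z : Cf H A Q => s • z)

/-- (R6) -/
def R6 : Prop := ∀ (H : Type) [Group H] [DecidableEq H], FPB H → ∀ (A Q : Type) [Finite A]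
  [Finite Q] (a0 : A) (G : Type) [Group G] [Group.IsFinitelyPresented G],
  (∀ x : G, IsOfFinOrder x) → ∀ (S : Set G) (T : Finset H) [MulAction G (Cf H A Q)],
  MA (H := H) (A := A) (Q := Q) G S T → ∀ D : ℕ, ∃ l : ℕ, ∀ z : Cf H A Q,
    (∀ p, z.1 p ≠ a0 → z.2.1⁻¹ * p ∈ T ^ D) →
    (MulAction.orbit G z).encard ≤ l ∨
      ∃ w : Cf H A Q, hop S l z w ∧ ∃ p, w.1 p ≠ a0 ∧ w.2.1⁻¹ * p ∉ T ^ D

/-- conclusion of (R7) -/
def E7 : Prop := ∀ (H : Type) [Group H] [DecidableEq H], FPB H → ∀ (A Q : Type) [Finite A]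
  [Finite Q] (a0 : A) (G : Type) [Group G] [Group.IsFinitelyPresented G],
  (∀ x : G, IsOfFinOrder x) → ∀ (S : Set G) (T : Finset H) [MulAction G (Cf H A Q)],
  MA (H := H) (A := A) (Q := Q) G S T → ∀ D : ℕ, ∃ l : ℕ, D ≤ l ∧ ∀ z : Cf H A Q,
    (∀ p, z.1 p ≠ a0 → z.2.1⁻¹ * p ∈ T ^ l → z.2.1⁻¹ * p ∈ T ^ D) →
    (MulAction.orbit G z).encard ≤ l ∨
      ∃ w : Cf H A Q, w ∈ MulAction.orbit G z ∧ z.2.1⁻¹ * w.2.1 ∈ T ^ l ∧
        (∀ p, w.1 p ≠ z.1 p → z.2.1⁻¹ * p ∈ T ^ l) ∧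
        ∃ p, w.1 p ≠ a0 ∧ w.2.1⁻¹ * p ∉ T ^ D ∧ z.2.1⁻¹ * p ∈ T ^ l

/-- (R7) -/
def R7 : Prop := R6 → E7

/-- conclusion of (R8) -/
def E8 : Prop := ∀ (H : Type) [Group H] [DecidableEq H], FPB H → ∀ (A Q : Type) [Finite A]
  [Finite Q] (a0 : A) (G : Type) [Group G] [Group.IsFinitelyPresented G],
  (∀ x : G, IsOfFinOrder x) → ∀ (S : Set G) (T : Finset H) [MulAction G (Cf H A Q)],
  MA (H := H) (A := A) (Q := Q) G S T → ∃ R m : ℕ, ∀ x : Cf H A Q,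
    (MulAction.orbit G x).encard ≤ m ∨
      ∀ y ∈ MulAction.orbit G x, ∃ k, x.1 k ≠ a0 ∧ k⁻¹ * y.2.1 ∈ T ^ R

/-- (R8) -/
def R8 : Prop := R4.{0, 0} → E7 → E8

/-- conclusion of (R9) -/
def E9 : Prop := ∀ (H : Type) [Group H] [DecidableEq H], FPB H → ∀ (A Q : Type) [Finite A]
  [Finite Q] [Nonempty A] (G : Type) [Group G] [Group.IsFinitelyPresented G],
  (∀ x : G, IsOfFinOrder x) → ∀ (S : Set G) (T : Finset H) [MulAction G (Cf H A Q)],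
  MA (H := H) (A := A) (Q := Q) G S T → ∃ n : ℕ, ∀ x : Cf H A Q, ∀ y ∈ MulAction.orbit G x,
    x.2.1⁻¹ * y.2.1 ∈ T ^ n

/-- (R9) -/
def R9 : Prop := R5.{0, 0} → E8 → E9

/-- the theorem -/
def Rtm : Prop := ∀ (H A Q : Type) [Group H] [Finite A] [Nonempty A] [Finite Q] [Nonempty Q],
  FPB H ↔ ∀ (G : Type) [Group G] [Group.IsFinitelyPresented G], (∀ x : G, IsOfFinOrder x) →
    ∀ ρ : G →* Equiv.Perm ((H → A) × H × Q),
      (∀ g, ∃ T : Finset H, (∀ z, z.2.1⁻¹ * (ρ g z).2.1 ∈ T) ∧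
        (∀ z p, (ρ g z).1 p ≠ z.1 p → z.2.1⁻¹ * p ∈ T) ∧
        ∀ z z', z.2.2 = z'.2.2 → (∀ τ ∈ T, z.1 (z.2.1 * τ) = z'.1 (z'.2.1 * τ)) →
          z.2.1⁻¹ * (ρ g z).2.1 = z'.2.1⁻¹ * (ρ g z').2.1 ∧ (ρ g z).2.2 = (ρ g z').2.2 ∧
            ∀ τ ∈ T, (ρ g z).1 (z.2.1 * τ) = (ρ g z').1 (z'.2.1 * τ)) → Finite ρ.range

/-- (R10) -/
def R10 : Prop := E9 → Rtm

end Vale.Agent.P192.R2.H360.R
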