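import Vale.Agent.P192.R2.H360.R.Defs2

set_option linter.all false

namespace Vale.Agent.P192.R2.H360.R

open Vale.Agent.P192 Vale.Agent.P192.H437 Vale.Agent.P192.H593 Vale.Agent.P192.R2.H577
open scoped Pointwise

section

variable {H : Type} [Group H] [DecidableEq H] {T : Finset H}

theorem tinv (hT : ∀ τ ∈ T, τ⁻¹ ∈ T) : ∀ (n : ℕ) (g : H), g ∈ T ^ n → g⁻¹ ∈ T ^ n := by
  intro n
  induction n with
  | zero => intro g hg; simpa using hg
  | succ n ih =>
    intro g hg
    rw [pow_succ, Finset.mem_mul] at hg
    obtain ⟨a, ha, b, hb, rfl⟩ := hg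
    rw [mul_inv_rev, pow_succ']
    exact Finset.mul_mem_mul (hT b hb) (ih a ha)

theorem tmono (h1 : 1 ∈ T) {m n : ℕ} (h : m ≤ n) {g : H} (hg : g ∈ T ^ m) : g ∈ T ^ n :=
  Finset.pow_subset_pow_right h1 h hg

theorem tmul {m n : ℕ} {g k : H} (hg : g ∈ T ^ m) (hk : k ∈ T ^ n) : g * k ∈ T ^ (m + n) := by
  rw [pow_add]; exact Finset.mul_mem_mul hg hk

end

theorem loc_orbit {H A Q G : Type} [Group H] [DecidableEq H] [Group G] {S : Set G} {T : Finset H}
    [MulAction G (Cf H A Q)] (hM : MA (H := H) (A := A) (Q := Q) G S T) (x : Cf H A Q) :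
    Loc S T (MulAction.orbit G x) (fun z => z.1.2.1) (fun z => z.1.1) (fun z => z.1.2.2) where
  one := hM.one
  inv := hM.inv
  move := fun z s hs => (hM.mach s hs).1 z.1
  write := fun z s p hs h => (hM.mach s hs).2.1 z.1 p h
  inj := by
    rintro ⟨⟨t, h, q⟩, hz⟩ ⟨⟨t', h', q'⟩, hz'⟩ e1 e2 e3
    simp only at e1 e2 e3
    subst e1 e2 e3
    rfl

theorem r8 : R8 := by
  classical
  intro h4 h7 H _ _ hH A Q _ _ a0 G _ _ hG S T _ hM
  have hG' : IsMulTorsion G := hG
  obtain ⟨M, hMM⟩ := h4 G hG' S hM.fin hM.gen H A Q T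
  -- bound on the number of separated differences
  have few : ∀ x : Cf H A Q, ∀ y ∈ MulAction.orbit G x, ∀ P : Finset H,
      (∀ p ∈ P, x.1 p = a0 ∧ y.1 p ≠ a0) →
      (∀ p ∈ P, ∀ p' ∈ P, p ≠ p' → p⁻¹ * p' ∉ T ^ 2) → P.card ≤ M := by
    intro x y hy P hP hP'
    refine hMM (MulAction.orbit G x) _ _ _ (loc_orbit hM x) ⟨x, MulAction.mem_orbit_self x⟩
      ⟨y, hy⟩ P (fun p hp => ?_) hP'
    have := hP p hp
    show x.1 p ≠ y.1 p
    rw [this.1]
    exact fun e => this.2 e.symm
  choose l hl1 hl2 using h7 H hH A Q a0 G hG S T hM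
  -- scales
  let D : ℕ → ℕ := fun k => Nat.rec 0 (fun _ d => l d + d + 2) k
  have hD : ∀ k, D (k + 1) = l (D k) + D k + 2 := fun k => rfl
  have hDm : Monotone D := monotone_nat_of_le_succ fun k => by rw [hD]; omega
  set E : ℕ := (M + 1) * (M + 1) with hE
  refine ⟨(M + 2) * D E, D E, ?_⟩
  intro x
  by_contra hcon
  push Not at hcon
  obtain ⟨hbig, y0, hy0, hfar0⟩ := hcon
  have key : ∀ j : ℕ, ∀ e : ℕ, j * (M + 1) ≤ e → e ≤ E → ∀ y ∈ MulAction.orbit G x,
      ∀ P : Finset H, (∀ p ∈ P, x.1 p = a0 ∧ y.1 p ≠ a0 ∧ y.2.1⁻¹ * p ∉ T ^ (D e)) →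
      (∀ p ∈ P, ∀ p' ∈ P, p ≠ p' → p⁻¹ * p' ∉ T ^ 2) → P.card + j = M + 1 →
      (∀ k, x.1 k ≠ a0 → k⁻¹ * y.2.1 ∉ T ^ ((j + 1) * D E)) → False := by
    intro j
    induction j with
    | zero =>
      intro e _ _ y hy P hP hsep hc _
      have := few x y hy P (fun p hp => ⟨(hP p hp).1, (hP p hp).2.1⟩) hsep
      omega
    | succ j ih =>
      intro e he heE y hy P hP hsep hc hfar
      have hDe : ∀ k, k < e → l (D k) + D k + 2 ≤ D e := by
        intro k hk
        rw [← hD]; exact hDm (show k + 1 ≤ e by omega)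
      have hDeE : D e ≤ D E := hDm heE
      -- sites near the head are zero in `x`
      have hz : ∀ p, y.2.1⁻¹ * p ∈ T ^ (D e) → x.1 p = a0 := by
        intro p hp
        by_contra hne
        refine hfar p hne ?_
        have h1 := tinv hM.inv _ _ hp
        rw [mul_inv_rev, inv_inv] at h1
        refine tmono hM.one (hDeE.trans ?_) h1
        exact Nat.le_mul_of_pos_left _ (by omega)
      -- an empty annulus
      have hann : ∃ k, k < e ∧ j * (M + 1) ≤ k ∧ ∀ p, y.1 p ≠ a0 →
          y.2.1⁻¹ * p ∈ T ^ (l (D k)) → y.2.1⁻¹ * p ∈ T ^ (D k) := by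
        by_contra hno
        push Not at hno
        have hno' : ∀ i : Fin (M + 1), ∃ p, y.1 p ≠ a0 ∧
            y.2.1⁻¹ * p ∈ T ^ (l (D (e - 1 - i))) ∧ y.2.1⁻¹ * p ∉ T ^ (D (e - 1 - i)) := by
          intro i
          have hi := i.2
          have he' : j * (M + 1) + (M + 1) ≤ e := by
            have : (j + 1) * (M + 1) = j * (M + 1) + (M + 1) := by ring
            omega
          exact hno (e - 1 - i) (by omega) (by omega)
        choose f hf1 hf2 hf3 using hno'
        have he' : j * (M + 1) + (M + 1) ≤ e := by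
          have : (j + 1) * (M + 1) = j * (M + 1) + (M + 1) := by ring
          omega
        have hsep2 : ∀ a b : Fin (M + 1), (a : ℕ) < b → (f b)⁻¹ * f a ∉ T ^ 2 := by
          intro a b hab hcon
          have ha := a.2
          have hb := b.2
          have h1 := tmul (hf2 b) hcon
          rw [mul_assoc, mul_inv_cancel_left] at h1
          refine hf3 a (tmono hM.one ?_ h1)
          have h2 : D (e - 1 - b + 1) ≤ D (e - 1 - a) := hDm (show e - 1 - (b : ℕ) + 1 ≤ e - 1 - (a : ℕ) by omega)
          rw [hD] at h2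
          omega
        have hinj : Function.Injective f := by
          intro a b hab
          by_contra hne
          rcases lt_or_gt_of_ne (fun h => hne (Fin.ext h) : (a : ℕ) ≠ b) with h | h
          · refine hsep2 a b h ?_
            rw [hab, inv_mul_cancel]
            exact tmono hM.one (Nat.zero_le 2) (by simp)
          · refine hsep2 b a h ?_
            rw [hab, inv_mul_cancel]
            exact tmono hM.one (Nat.zero_le 2) (by simp)
        have := few x y hy (Finset.univ.image f) (by
          intro p hp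
          obtain ⟨i, -, rfl⟩ := Finset.mem_image.1 hp
          have hi := i.2
          refine ⟨hz _ (tmono hM.one ?_ (hf2 i)), hf1 i⟩
          have := hDe (e - 1 - i) (by omega)
          omega) (by
          intro p hp p' hp' hne
          obtain ⟨i, -, rfl⟩ := Finset.mem_image.1 hp
          obtain ⟨i', -, rfl⟩ := Finset.mem_image.1 hp'
          rcases lt_or_gt_of_ne (fun h => hne (by rw [Fin.ext h]) : (i : ℕ) ≠ i') with h | h
          · intro hc
            have h1 := tinv hM.inv _ _ hc
            rw [mul_inv_rev, inv_inv] at h1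
            exact hsep2 i i' h h1
          · exact hsep2 i' i h)
        rw [Finset.card_image_of_injective _ hinj, Finset.card_univ, Fintype.card_fin] at this
        omega
      obtain ⟨k, hke, hjk, hempty⟩ := hann
      have hok := hDe k hke
      rcases hl2 (D k) y hempty with hsmall | ⟨w, hw, hw1, hw2, p, hp1, hp2, hp3⟩
      · have horb : MulAction.orbit G y = MulAction.orbit G x := MulAction.orbit_eq_iff.2 hy
        rw [horb] at hsmall
        refine absurd hbig (not_lt.2 (hsmall.trans ?_))
        exact_mod_cast (by omega : l (D k) ≤ D E)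
      · have hw' : w ∈ MulAction.orbit G x := by
          have horb : MulAction.orbit G y = MulAction.orbit G x := MulAction.orbit_eq_iff.2 hy
          rwa [horb] at hw
        have hP2 : ∀ p' ∈ P, y.2.1⁻¹ * p' ∉ T ^ (l (D k) + D k + 2) := fun p' hp' h =>
          (hP p' hp').2.2 (tmono hM.one hok h)
        have hpP : p ∉ P := fun h => hP2 p h (tmono hM.one (by omega) hp3)
        have hsepp : ∀ p' ∈ P, p⁻¹ * p' ∉ T ^ 2 := by
          intro p' hp' hc
          have h1 := tmul hp3 hc
          rw [mul_assoc, mul_inv_cancel_left] at h1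
          exact hP2 p' hp' (tmono hM.one (by omega) h1)
        refine ih k hjk (by omega) w hw' (insert p P) ?_ ?_ ?_ ?_
        · intro p' hp'
          rcases Finset.mem_insert.1 hp' with rfl | hp'
          · exact ⟨hz _ (tmono hM.one (by omega) hp3), hp1, hp2⟩
          · have h3 := hP2 p' hp'
            have h4 : w.1 p' = y.1 p' := by
              by_contra hne
              exact h3 (tmono hM.one (by omega) (hw2 p' hne))
            refine ⟨(hP p' hp').1, by rw [h4]; exact (hP p' hp').2.1, fun h5 => h3 ?_⟩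
            have h6 := tmul hw1 h5
            rw [mul_assoc, mul_inv_cancel_left] at h6
            exact tmono hM.one (by omega) h6
        · intro q hq q' hq' hne
          rcases Finset.mem_insert.1 hq with e1 | hq1
          · rcases Finset.mem_insert.1 hq' with e2 | hq2
            · exact absurd (e1.trans e2.symm) hne
            · rw [e1]; exact hsepp q' hq2
          · rcases Finset.mem_insert.1 hq' with e2 | hq2
            · intro hc
              have h1 := tinv hM.inv _ _ hc
              rw [mul_inv_rev, inv_inv, e2] at h1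
              exact hsepp q hq1 h1
            · exact hsep q hq1 q' hq2 hne
        · rw [Finset.card_insert_of_notMem hpP]; omega
        · intro q hq hc
          refine hfar q hq ?_
          have h1 := tinv hM.inv _ _ hw1
          rw [mul_inv_rev, inv_inv] at h1
          have h2 := tmul hc h1
          rw [mul_assoc, mul_inv_cancel_left] at h2
          refine tmono hM.one ?_ h2
          have : (j + 1 + 1) * D E = (j + 1) * D E + D E := by ring
          omega
  refine key (M + 1) E le_rfl le_rfl y0 hy0 ∅ (by simp) (by simp) (by simp) ?_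
  intro k hk
  exact hfar0 k hk

end Vale.Agent.P192.R2.H360.R
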